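import Vale.Agent.P369.FD.Stmts
import Vale.Agent.P369.H587.Dp

/-!
P369, FD track, package SUM (helper27): the sum rule for `X_N = (N+1) a ρ - N ρ a` under the
(truncated) beam splitter, with the truncation error.
-/

set_option linter.all false

namespace Vale.Agent.P369.FD

open Matrix
open Vale.P369.H587 (pull pull_add pull_sub pull_smul pull_conjTranspose pull_one pull_posSemidef
  ptr2 ptr1 trace_kron_one_mul trace_one_kron_mul outC dualA dualB trace_outC_mul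
  exists_conjTranspose_mul_self trace_mul_nonneg outC_posSemidef outC_trace)
open scoped Kronecker ComplexOrder

noncomputable section

namespace Sum27

section cs

variable {α β : Type} [Fintype α] [DecidableEq α] [Fintype β] [DecidableEq β]

/-- Cauchy–Schwarz for the trace form of two matrices. -/
theorem cs_trace (U V : Matrix α β ℂ) :
    ‖(Uᴴ * V).trace‖ ^ 2 ≤ (Uᴴ * U).trace.re * (Vᴴ * V).trace.re := by
  have e : ∀ X Y : Matrix α β ℂ, (Xᴴ * Y).trace = ∑ j, ∑ i, star (X i j) * Y i j := by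
    intro X Y
    simp [Matrix.trace, Matrix.mul_apply]
  have n : ∀ X : Matrix α β ℂ, (Xᴴ * X).trace.re = ∑ p : β × α, ‖X p.2 p.1‖ ^ 2 := by
    intro X
    rw [e, Complex.re_sum, Fintype.sum_prod_type]
    refine Finset.sum_congr rfl fun j _ => ?_
    rw [Complex.re_sum]
    refine Finset.sum_congr rfl fun i _ => ?_
    have : star (X i j) * X i j = ((‖X i j‖ ^ 2 : ℝ) : ℂ) := by
      rw [Complex.star_def, ← Complex.normSq_eq_conj_mul_self, Complex.normSq_eq_norm_sq]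
    rw [this, Complex.ofReal_re]
  have h1 : ‖(Uᴴ * V).trace‖ ≤ ∑ p : β × α, ‖U p.2 p.1‖ * ‖V p.2 p.1‖ := by
    rw [e, Fintype.sum_prod_type]
    refine (norm_sum_le _ _).trans (Finset.sum_le_sum fun j _ => (norm_sum_le _ _).trans
      (Finset.sum_le_sum fun i _ => ?_))
    rw [norm_mul, norm_star]
  have h2 := Finset.sum_mul_sq_le_sq_mul_sq (Finset.univ : Finset (β × α))
    (fun p => ‖U p.2 p.1‖) (fun p => ‖V p.2 p.1‖)
  rw [n, n]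
  exact (pow_le_pow_left₀ (norm_nonneg _) h1 2).trans h2

/-- Cauchy–Schwarz with a positive weight. -/
theorem cs_weight {R : Matrix α α ℂ} (hR : R.PosSemidef) (U V : Matrix α β ℂ) :
    ‖(Uᴴ * R * V).trace‖ ^ 2 ≤ (Uᴴ * R * U).trace.re * (Vᴴ * R * V).trace.re := by
  obtain ⟨K, hK⟩ := exists_conjTranspose_mul_self hR
  have e : ∀ X Y : Matrix α β ℂ, Xᴴ * R * Y = (K * X)ᴴ * (K * Y) := by
    intro X Y
    rw [hK, Matrix.conjTranspose_mul]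
    simp only [Matrix.mul_assoc]
  rw [e, e, e]
  exact cs_trace _ _

end cs

section core

variable {ι ι' κ ε : Type} [Fintype ι] [DecidableEq ι] [Fintype ι'] [DecidableEq ι']
  [Fintype κ] [DecidableEq κ] [Fintype ε] [DecidableEq ε]

/-- the defect `Wᴴ F - G Wᴴ` of an intertwining relation `F W = W G` -/
def Rg (W : Matrix (κ × ε) (ι × ι') ℂ) (F : Matrix (κ × ε) (κ × ε) ℂ)
    (G : Matrix (ι × ι') (ι × ι') ℂ) : Matrix (ι × ι') (κ × ε) ℂ := Wᴴ * F - G * Wᴴ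

theorem tp_sub {W : Matrix (κ × ε) (ι × ι') ℂ} {F : Matrix (κ × ε) (κ × ε) ℂ}
    {G : Matrix (ι × ι') (ι × ι') ℂ} (hW : Wᴴ * W = 1) (hF : F * W = W * G) :
    tp G - Rg W F G * (Rg W F G)ᴴ = Wᴴ * tp F * W := by
  have h1 : Wᴴ * F * (W * Gᴴ) = G * Gᴴ := by
    rw [← Matrix.mul_assoc, Matrix.mul_assoc Wᴴ F W, hF, ← Matrix.mul_assoc, hW, Matrix.one_mul]
  have h2 : G * Wᴴ * (Fᴴ * W) = G * Gᴴ := by
    have : Wᴴ * Fᴴ = Gᴴ * Wᴴ := by
      rw [← Matrix.conjTranspose_mul, hF, Matrix.conjTranspose_mul]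
    rw [Matrix.mul_assoc, ← Matrix.mul_assoc Wᴴ Fᴴ W, this, Matrix.mul_assoc, hW, Matrix.mul_one]
  have h3 : G * Wᴴ * (W * Gᴴ) = G * Gᴴ := by
    rw [Matrix.mul_assoc, ← Matrix.mul_assoc Wᴴ, hW, Matrix.one_mul]
  have h4 : Gᴴ * G = Wᴴ * (Fᴴ * F) * W := by
    have : Wᴴ * Fᴴ = Gᴴ * Wᴴ := by
      rw [← Matrix.conjTranspose_mul, hF, Matrix.conjTranspose_mul]
    rw [← Matrix.mul_assoc Wᴴ, this, Matrix.mul_assoc, hF, Matrix.mul_assoc, ← Matrix.mul_assoc Wᴴ,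
      hW, Matrix.one_mul]
  have h5 : Rg W F G * (Rg W F G)ᴴ = Wᴴ * (F * Fᴴ) * W - G * Gᴴ := by
    unfold Rg
    rw [Matrix.conjTranspose_sub, Matrix.conjTranspose_mul, Matrix.conjTranspose_mul,
      Matrix.conjTranspose_conjTranspose, Matrix.mul_sub, Matrix.sub_mul, Matrix.sub_mul, h1, h2, h3]
    simp only [Matrix.mul_assoc]
    abel
  rw [h5]
  unfold tp
  rw [h4, Matrix.mul_sub, Matrix.mul_add, Matrix.sub_mul, Matrix.add_mul, Matrix.mul_one, hW]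
  abel

theorem tp_F {u v : ℝ} (huv : u ^ 2 + v ^ 2 = 1) (c : Matrix κ κ ℂ) (d : Matrix ε ε ℂ) :
    tp (((u : ℝ) : ℂ) • (c ⊗ₖ (1 : Matrix ε ε ℂ)) + ((v : ℝ) : ℂ) • ((1 : Matrix κ κ ℂ) ⊗ₖ d)) =
      ((u ^ 2 : ℝ) : ℂ) • (tp c ⊗ₖ (1 : Matrix ε ε ℂ)) +
        ((v ^ 2 : ℝ) : ℂ) • ((1 : Matrix κ κ ℂ) ⊗ₖ tp d) := by
  have e1 : ((u ^ 2 : ℝ) : ℂ) + ((v ^ 2 : ℝ) : ℂ) = 1 := by
    rw [← Complex.ofReal_add, huv, Complex.ofReal_one]
  unfold tp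
  simp only [Matrix.conjTranspose_add, Matrix.conjTranspose_smul, Matrix.conjTranspose_kronecker,
    Matrix.conjTranspose_one, Matrix.mul_add, Matrix.add_mul, Matrix.smul_mul, Matrix.mul_smul,
    ← Matrix.mul_kronecker_mul, Matrix.mul_one, Matrix.one_mul, Complex.star_def,
    Complex.conj_ofReal]
  have e2 : (cᴴ * c + 1 - c * cᴴ) ⊗ₖ (1 : Matrix ε ε ℂ) = (cᴴ * c) ⊗ₖ (1 : Matrix ε ε ℂ) +
      (1 : Matrix (κ × ε) (κ × ε) ℂ) - (c * cᴴ) ⊗ₖ (1 : Matrix ε ε ℂ) := by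
    rw [← Matrix.one_kronecker_one, sub_eq_add_neg, sub_eq_add_neg, Matrix.add_kronecker,
      Matrix.add_kronecker]
    congr 1
    ext i j
    simp [Matrix.kroneckerMap_apply]
  have e3 : (1 : Matrix κ κ ℂ) ⊗ₖ (dᴴ * d + 1 - d * dᴴ) = (1 : Matrix κ κ ℂ) ⊗ₖ (dᴴ * d) +
      (1 : Matrix (κ × ε) (κ × ε) ℂ) - (1 : Matrix κ κ ℂ) ⊗ₖ (d * dᴴ) := by
    rw [← Matrix.one_kronecker_one, sub_eq_add_neg, sub_eq_add_neg, Matrix.kronecker_add,
      Matrix.kronecker_add]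
    congr 1
    ext i j
    simp [Matrix.kroneckerMap_apply]
  rw [e2, e3]
  ext i j
  simp only [Matrix.add_apply, Matrix.sub_apply, Matrix.smul_apply, smul_eq_mul]
  push_cast at e1 ⊢
  linear_combination (-(1 : Matrix (κ × ε) (κ × ε) ℂ) i j) * e1

theorem tp_F_pos {u v : ℝ} (huv : u ^ 2 + v ^ 2 = 1) {c : Matrix κ κ ℂ} {d : Matrix ε ε ℂ}
    (hc : (tp c).PosSemidef) (hd : (tp d).PosSemidef) :
    (tp (((u : ℝ) : ℂ) • (c ⊗ₖ (1 : Matrix ε ε ℂ)) +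
      ((v : ℝ) : ℂ) • ((1 : Matrix κ κ ℂ) ⊗ₖ d))).PosSemidef := by
  rw [tp_F huv]
  have hu : (0 : ℂ) ≤ ((u ^ 2 : ℝ) : ℂ) := by exact_mod_cast sq_nonneg u
  have hv : (0 : ℂ) ≤ ((v ^ 2 : ℝ) : ℂ) := by exact_mod_cast sq_nonneg v
  exact ((hc.kronecker Matrix.PosSemidef.one).smul hu).add
    ((Matrix.PosSemidef.one.kronecker hd).smul hv)

/-- the commutator of the pulled back observable with `Gᴴ` -/
theorem comm_pull {W : Matrix (κ × ε) (ι × ι') ℂ} {G : Matrix (ι × ι') (ι × ι') ℂ}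
    {u v : ℝ} {c : Matrix κ κ ℂ} {d : Matrix ε ε ℂ}
    (hF : (((u : ℝ) : ℂ) • (c ⊗ₖ (1 : Matrix ε ε ℂ)) + ((v : ℝ) : ℂ) • ((1 : Matrix κ κ ℂ) ⊗ₖ d)) * W
      = W * G) (Z : Matrix κ κ ℂ) :
    Gᴴ * pull W Z - pull W Z * Gᴴ = ((u : ℝ) : ℂ) • pull W (cᴴ * Z - Z * cᴴ) +
      Wᴴ * (Z ⊗ₖ (1 : Matrix ε ε ℂ)) *
        (Rg W (((u : ℝ) : ℂ) • (c ⊗ₖ (1 : Matrix ε ε ℂ)) +
          ((v : ℝ) : ℂ) • ((1 : Matrix κ κ ℂ) ⊗ₖ d)) G)ᴴ := by
  set F : Matrix (κ × ε) (κ × ε) ℂ := ((u : ℝ) : ℂ) • (c ⊗ₖ (1 : Matrix ε ε ℂ)) +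
    ((v : ℝ) : ℂ) • ((1 : Matrix κ κ ℂ) ⊗ₖ d) with hFd
  have h1 : Gᴴ * pull W Z = Wᴴ * (Fᴴ * (Z ⊗ₖ (1 : Matrix ε ε ℂ))) * W := by
    have : Gᴴ * Wᴴ = Wᴴ * Fᴴ := by
      rw [← Matrix.conjTranspose_mul, ← hF, Matrix.conjTranspose_mul]
    unfold pull
    rw [← Matrix.mul_assoc, ← Matrix.mul_assoc, this]
    simp only [Matrix.mul_assoc]
  have h2 : Wᴴ * (Z ⊗ₖ (1 : Matrix ε ε ℂ)) * (Rg W F G)ᴴ =
      Wᴴ * ((Z ⊗ₖ (1 : Matrix ε ε ℂ)) * Fᴴ) * W - pull W Z * Gᴴ := by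
    unfold Rg pull
    rw [Matrix.conjTranspose_sub, Matrix.conjTranspose_mul, Matrix.conjTranspose_mul,
      Matrix.conjTranspose_conjTranspose, Matrix.mul_sub]
    simp only [Matrix.mul_assoc]
  have h3 : Fᴴ * (Z ⊗ₖ (1 : Matrix ε ε ℂ)) - (Z ⊗ₖ (1 : Matrix ε ε ℂ)) * Fᴴ =
      ((u : ℝ) : ℂ) • ((cᴴ * Z - Z * cᴴ) ⊗ₖ (1 : Matrix ε ε ℂ)) := by
    rw [hFd]
    simp only [Matrix.conjTranspose_add, Matrix.conjTranspose_smul, Matrix.conjTranspose_kronecker,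
      Matrix.conjTranspose_one, Matrix.mul_add, Matrix.add_mul, Matrix.smul_mul, Matrix.mul_smul,
      ← Matrix.mul_kronecker_mul, Matrix.mul_one, Matrix.one_mul, Complex.star_def,
      Complex.conj_ofReal]
    ext i j
    simp only [Matrix.add_apply, Matrix.sub_apply, Matrix.smul_apply, smul_eq_mul,
      Matrix.kroneckerMap_apply]
    ring
  rw [h2, h1]
  have h4 : ((u : ℝ) : ℂ) • pull W (cᴴ * Z - Z * cᴴ) =
      Wᴴ * (Fᴴ * (Z ⊗ₖ (1 : Matrix ε ε ℂ)) - (Z ⊗ₖ (1 : Matrix ε ε ℂ)) * Fᴴ) * W := by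
    rw [h3]
    unfold pull
    rw [Matrix.mul_smul, Matrix.smul_mul]
  rw [h4, Matrix.mul_sub, Matrix.sub_mul]
  abel

end core

section trace

variable {ι ι' κ ε : Type} [Fintype ι] [DecidableEq ι] [Fintype ι'] [DecidableEq ι']
  [Fintype κ] [DecidableEq κ] [Fintype ε] [DecidableEq ε]

theorem EA_eq (W : Matrix (κ × ε) (ι × ι') ℂ) (B : Matrix ι' ι' ℂ) (Z : Matrix κ κ ℂ) :
    EA W B Z = ptr2 (((1 : Matrix ι ι ℂ) ⊗ₖ B) * pull W Z) := rfl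

theorem EB_eq (W : Matrix (κ × ε) (ι × ι') ℂ) (A : Matrix ι ι ℂ) (Z : Matrix κ κ ℂ) :
    EB W A Z = ptr1 ((A ⊗ₖ (1 : Matrix ι' ι' ℂ)) * pull W Z) := rfl

theorem trace_mul_EA (W : Matrix (κ × ε) (ι × ι') ℂ) (Y : Matrix ι ι ℂ) (B : Matrix ι' ι' ℂ)
    (Z : Matrix κ κ ℂ) : (Y * EA W B Z).trace = ((Y ⊗ₖ B) * pull W Z).trace := by
  rw [EA_eq, ← trace_kron_one_mul, ← Matrix.mul_assoc, ← Matrix.mul_kronecker_mul, Matrix.mul_one,
    Matrix.one_mul]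

theorem trace_mul_EB (W : Matrix (κ × ε) (ι × ι') ℂ) (A : Matrix ι ι ℂ) (Y : Matrix ι' ι' ℂ)
    (Z : Matrix κ κ ℂ) : (Y * EB W A Z).trace = ((A ⊗ₖ Y) * pull W Z).trace := by
  rw [EB_eq, ← trace_one_kron_mul, ← Matrix.mul_assoc, ← Matrix.mul_kronecker_mul, Matrix.mul_one,
    Matrix.one_mul]

theorem trace_outp_mul (W : Matrix (κ × ε) (ι × ι') ℂ) (A : Matrix ι ι ℂ) (B : Matrix ι' ι' ℂ)
    (Z : Matrix κ κ ℂ) : (outp W A B * Z).trace = ((A ⊗ₖ B) * pull W Z).trace :=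
  trace_outC_mul W A B Z

theorem trace_XA (W : Matrix (κ × ε) (ι × ι') ℂ) (N : ℝ) (a A : Matrix ι ι ℂ)
    (hA : Aᴴ = A) (B : Matrix ι' ι' ℂ) (Z : Matrix κ κ ℂ) :
    ((Xl N a A)ᴴ * EA W B Z).trace =
      ((A ⊗ₖ B) * ((a ⊗ₖ (1 : Matrix ι' ι' ℂ))ᴴ * pull W Z)).trace +
      ((N : ℝ) : ℂ) * ((A ⊗ₖ B) * ((a ⊗ₖ (1 : Matrix ι' ι' ℂ))ᴴ * pull W Z -
        pull W Z * (a ⊗ₖ (1 : Matrix ι' ι' ℂ))ᴴ)).trace := by
  have e1 : (A * aᴴ) ⊗ₖ B = (A ⊗ₖ B) * (a ⊗ₖ (1 : Matrix ι' ι' ℂ))ᴴ := by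
    rw [Matrix.conjTranspose_kronecker, Matrix.conjTranspose_one, ← Matrix.mul_kronecker_mul,
      Matrix.mul_one]
  have e2 : (aᴴ * A) ⊗ₖ B = (a ⊗ₖ (1 : Matrix ι' ι' ℂ))ᴴ * (A ⊗ₖ B) := by
    rw [Matrix.conjTranspose_kronecker, Matrix.conjTranspose_one, ← Matrix.mul_kronecker_mul,
      Matrix.one_mul]
  have h1 : ((A * aᴴ) * EA W B Z).trace =
      ((A ⊗ₖ B) * ((a ⊗ₖ (1 : Matrix ι' ι' ℂ))ᴴ * pull W Z)).trace := by
    rw [trace_mul_EA, e1, Matrix.mul_assoc]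
  have h2 : ((aᴴ * A) * EA W B Z).trace =
      ((A ⊗ₖ B) * (pull W Z * (a ⊗ₖ (1 : Matrix ι' ι' ℂ))ᴴ)).trace := by
    rw [trace_mul_EA, e2, Matrix.mul_assoc, Matrix.trace_mul_comm, Matrix.mul_assoc]
  unfold Xl
  rw [Matrix.conjTranspose_sub, Matrix.conjTranspose_smul, Matrix.conjTranspose_smul,
    Matrix.conjTranspose_mul, Matrix.conjTranspose_mul, hA, Matrix.sub_mul, Matrix.smul_mul,
    Matrix.smul_mul, Matrix.trace_sub, Matrix.trace_smul, Matrix.trace_smul, h1, h2,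
    Matrix.mul_sub, Matrix.trace_sub]
  simp only [Complex.star_def, Complex.conj_ofReal, smul_eq_mul]
  push_cast
  ring

theorem trace_XB (W : Matrix (κ × ε) (ι × ι') ℂ) (N : ℝ) (b B : Matrix ι' ι' ℂ)
    (hB : Bᴴ = B) (A : Matrix ι ι ℂ) (Z : Matrix κ κ ℂ) :
    ((Xl N b B)ᴴ * EB W A Z).trace =
      ((A ⊗ₖ B) * (((1 : Matrix ι ι ℂ) ⊗ₖ b)ᴴ * pull W Z)).trace +
      ((N : ℝ) : ℂ) * ((A ⊗ₖ B) * (((1 : Matrix ι ι ℂ) ⊗ₖ b)ᴴ * pull W Z -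
        pull W Z * ((1 : Matrix ι ι ℂ) ⊗ₖ b)ᴴ)).trace := by
  have e1 : A ⊗ₖ (B * bᴴ) = (A ⊗ₖ B) * ((1 : Matrix ι ι ℂ) ⊗ₖ b)ᴴ := by
    rw [Matrix.conjTranspose_kronecker, Matrix.conjTranspose_one, ← Matrix.mul_kronecker_mul,
      Matrix.mul_one]
  have e2 : A ⊗ₖ (bᴴ * B) = ((1 : Matrix ι ι ℂ) ⊗ₖ b)ᴴ * (A ⊗ₖ B) := by
    rw [Matrix.conjTranspose_kronecker, Matrix.conjTranspose_one, ← Matrix.mul_kronecker_mul,
      Matrix.one_mul]
  have h1 : ((B * bᴴ) * EB W A Z).trace =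
      ((A ⊗ₖ B) * (((1 : Matrix ι ι ℂ) ⊗ₖ b)ᴴ * pull W Z)).trace := by
    rw [trace_mul_EB, e1, Matrix.mul_assoc]
  have h2 : ((bᴴ * B) * EB W A Z).trace =
      ((A ⊗ₖ B) * (pull W Z * ((1 : Matrix ι ι ℂ) ⊗ₖ b)ᴴ)).trace := by
    rw [trace_mul_EB, e2, Matrix.mul_assoc, Matrix.trace_mul_comm, Matrix.mul_assoc]
  unfold Xl
  rw [Matrix.conjTranspose_sub, Matrix.conjTranspose_smul, Matrix.conjTranspose_smul,
    Matrix.conjTranspose_mul, Matrix.conjTranspose_mul, hB, Matrix.sub_mul, Matrix.smul_mul,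
    Matrix.smul_mul, Matrix.trace_sub, Matrix.trace_smul, Matrix.trace_smul, h1, h2,
    Matrix.mul_sub, Matrix.trace_sub]
  simp only [Complex.star_def, Complex.conj_ofReal, smul_eq_mul]
  push_cast
  ring

theorem trace_XC (W : Matrix (κ × ε) (ι × ι') ℂ) (M : ℝ) (c : Matrix κ κ ℂ)
    {A : Matrix ι ι ℂ} {B : Matrix ι' ι' ℂ} (hC : (outp W A B)ᴴ = outp W A B) (Z : Matrix κ κ ℂ) :
    ((Xl M c (outp W A B))ᴴ * Z).trace =
      ((A ⊗ₖ B) * pull W (cᴴ * Z)).trace +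
      ((M : ℝ) : ℂ) * ((A ⊗ₖ B) * pull W (cᴴ * Z - Z * cᴴ)).trace := by
  set C := outp W A B with hCd
  have h1 : ((C * cᴴ) * Z).trace = ((A ⊗ₖ B) * pull W (cᴴ * Z)).trace := by
    rw [Matrix.mul_assoc, hCd, trace_outp_mul]
  have h2 : ((cᴴ * C) * Z).trace = ((A ⊗ₖ B) * pull W (Z * cᴴ)).trace := by
    rw [Matrix.mul_assoc, Matrix.trace_mul_comm, Matrix.mul_assoc, hCd, trace_outp_mul]
  unfold Xl
  rw [Matrix.conjTranspose_sub, Matrix.conjTranspose_smul, Matrix.conjTranspose_smul,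
    Matrix.conjTranspose_mul, Matrix.conjTranspose_mul, hC, Matrix.sub_mul, Matrix.smul_mul,
    Matrix.smul_mul, Matrix.trace_sub, Matrix.trace_smul, Matrix.trace_smul, h1, h2, pull_sub,
    Matrix.mul_sub, Matrix.trace_sub]
  simp only [Complex.star_def, Complex.conj_ofReal, smul_eq_mul]
  push_cast
  ring

/-- the error term is small -/
theorem err_bound {W : Matrix (κ × ε) (ι × ι') ℂ} (hW : Wᴴ * W = 1)
    {A : Matrix ι ι ℂ} {B : Matrix ι' ι' ℂ} (hA : A.PosSemidef) (hB : B.PosSemidef)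
    (htA : A.trace = 1) (htB : B.trace = 1)
    {F : Matrix (κ × ε) (κ × ε) ℂ} {G : Matrix (ι × ι') (ι × ι') ℂ} (hF : F * W = W * G)
    (hFp : (tp F).PosSemidef) {h : ℝ} (hh : 0 ≤ h) {Z : Matrix κ κ ℂ}
    (hZ : (((h ^ 2 : ℝ) : ℂ) • (1 : Matrix κ κ ℂ) - Z * Zᴴ).PosSemidef) :
    ‖((A ⊗ₖ B) * (Wᴴ * (Z ⊗ₖ (1 : Matrix ε ε ℂ)) * (Rg W F G)ᴴ)).trace‖ ≤
      h * Real.sqrt ((A ⊗ₖ B) * tp G).trace.re := by
  set R := Rg W F G with hR
  set V : Matrix (ι × ι') (κ × ε) ℂ := Wᴴ * (Z ⊗ₖ (1 : Matrix ε ε ℂ)) with hV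
  have hρ : (A ⊗ₖ B).PosSemidef := hA.kronecker hB
  have e0 : ((A ⊗ₖ B) * (V * Rᴴ)).trace = (Rᴴ * (A ⊗ₖ B) * V).trace := by
    rw [← Matrix.mul_assoc, Matrix.trace_mul_comm, Matrix.mul_assoc]
  have e1 := cs_weight hρ R V
  have e2 : (Rᴴ * (A ⊗ₖ B) * R).trace.re ≤ ((A ⊗ₖ B) * tp G).trace.re := by
    have h1 : (Rᴴ * (A ⊗ₖ B) * R).trace = ((A ⊗ₖ B) * (R * Rᴴ)).trace := by
      rw [Matrix.mul_assoc, Matrix.trace_mul_comm, Matrix.mul_assoc]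
    have h2 : (tp G - R * Rᴴ).PosSemidef := by
      rw [hR, tp_sub hW hF]
      have := hFp.conjTranspose_mul_mul_same W
      exact this
    have h3 := trace_mul_nonneg hρ h2
    rw [Matrix.mul_sub, Matrix.trace_sub] at h3
    have h4 := (Complex.le_def.1 h3).1
    rw [h1]
    simp only [Complex.zero_re, Complex.sub_re] at h4
    linarith
  have e3 : (Vᴴ * (A ⊗ₖ B) * V).trace.re ≤ h ^ 2 := by
    have h1 : (Vᴴ * (A ⊗ₖ B) * V).trace = (outp W A B * (Z * Zᴴ)).trace := by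
      rw [trace_outp_mul, Matrix.mul_assoc, Matrix.trace_mul_comm, Matrix.mul_assoc]
      congr 1
      unfold pull
      rw [hV, Matrix.conjTranspose_mul, Matrix.conjTranspose_conjTranspose,
        Matrix.conjTranspose_kronecker, Matrix.conjTranspose_one]
      congr 1
      rw [← Matrix.mul_assoc, Matrix.mul_assoc Wᴴ, ← Matrix.mul_kronecker_mul, Matrix.one_mul]
    have h2 := trace_mul_nonneg (outC_posSemidef W A B hA hB) hZ
    have h3 : (outC W A B).trace = 1 := outC_trace W A B hW htA htB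
    rw [Matrix.mul_sub, Matrix.mul_smul, Matrix.mul_one, Matrix.trace_sub, Matrix.trace_smul, h3]
      at h2
    have h4 := (Complex.le_def.1 h2).1
    rw [h1]
    simp only [Complex.zero_re, Complex.sub_re, smul_eq_mul, mul_one, Complex.ofReal_re] at h4
    have h5 : (outp W A B * (Z * Zᴴ)).trace.re = (outC W A B * (Z * Zᴴ)).trace.re := rfl
    rw [h5]
    linarith
  have e4 : 0 ≤ (Rᴴ * (A ⊗ₖ B) * R).trace.re :=
    (Complex.le_def.1 (hρ.conjTranspose_mul_mul_same R).trace_nonneg).1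
  rw [e0]
  have e5 : ‖(Rᴴ * (A ⊗ₖ B) * V).trace‖ ^ 2 ≤ h ^ 2 * ((A ⊗ₖ B) * tp G).trace.re := by
    refine e1.trans ?_
    rw [mul_comm (h ^ 2)]
    exact mul_le_mul e2 e3
      (Complex.le_def.1 (hρ.conjTranspose_mul_mul_same V).trace_nonneg).1 (e4.trans e2)
  have e6 : (h * Real.sqrt ((A ⊗ₖ B) * tp G).trace.re) ^ 2 = h ^ 2 * ((A ⊗ₖ B) * tp G).trace.re := by
    rw [mul_pow, Real.sq_sqrt (e4.trans e2)]
  exact abs_le_of_sq_le_sq' (by rw [e6]; exact e5) (by positivity) |>.2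

end trace

/-- the scalar estimate -/
theorem scal {s t NA NB x y : ℝ} (hst : s ^ 2 + t ^ 2 = 1) (hNA : 0 ≤ NA) (hNB : 0 ≤ NB)
    (hx : 0 ≤ x) (hy : 0 ≤ y) :
    |s| * NA * Real.sqrt x + |t| * NB * Real.sqrt y ≤
      (s ^ 2 * NA + t ^ 2 * NB + |NB - NA|) * Real.sqrt (x + y) := by
  have hM : 0 ≤ s ^ 2 * NA + t ^ 2 * NB := by positivity
  apply abs_le_of_sq_le_sq' _ (by positivity) |>.2
  rw [mul_pow, Real.sq_sqrt (by positivity)]
  have h1 : (|s| * NA * Real.sqrt x + |t| * NB * Real.sqrt y) ^ 2 ≤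
      (s ^ 2 * NA ^ 2 + t ^ 2 * NB ^ 2) * (x + y) := by
    have hx' := Real.sq_sqrt hx
    have hy' := Real.sq_sqrt hy
    have hs' := sq_abs s
    have ht' := sq_abs t
    have key : (s ^ 2 * NA ^ 2 + t ^ 2 * NB ^ 2) * (x + y) -
        (|s| * NA * Real.sqrt x + |t| * NB * Real.sqrt y) ^ 2 =
        (|s| * NA * Real.sqrt y - |t| * NB * Real.sqrt x) ^ 2 := by
      rw [← hs', ← ht']
      nth_rewrite 1 [← hx']
      nth_rewrite 1 [← hy']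
      ring
    nlinarith [sq_nonneg (|s| * NA * Real.sqrt y - |t| * NB * Real.sqrt x)]
  have h2 : s ^ 2 * NA ^ 2 + t ^ 2 * NB ^ 2 ≤ (s ^ 2 * NA + t ^ 2 * NB + |NB - NA|) ^ 2 := by
    have e1 : s ^ 2 * NA ^ 2 + t ^ 2 * NB ^ 2 =
        (s ^ 2 * NA + t ^ 2 * NB) ^ 2 + s ^ 2 * t ^ 2 * (NB - NA) ^ 2 := by
      have : t ^ 2 = 1 - s ^ 2 := by linarith
      rw [this]
      ring
    have e2 : s ^ 2 * t ^ 2 ≤ 1 := by nlinarith [sq_nonneg s, sq_nonneg t]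
    have e3 : s ^ 2 * t ^ 2 * (NB - NA) ^ 2 ≤ |NB - NA| ^ 2 := by
      rw [sq_abs]
      nlinarith [sq_nonneg (NB - NA)]
    rw [e1]
    nlinarith [abs_nonneg (NB - NA), mul_nonneg hM (abs_nonneg (NB - NA))]
  exact h1.trans (mul_le_mul_of_nonneg_right h2 (by positivity))

end Sum27

open Sum27

/-- package SUM -/
theorem thm_SUM : S_SUM := by
  intro ι ι' κ ε J _ _ _ _ _ _ _ _ _ s t s' t' a b c d W hS A B hA hB NA NB h H hNA hNB hh hH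
  obtain ⟨hAp, hAt⟩ := hA
  obtain ⟨hBp, hBt⟩ := hB
  have hAh : Aᴴ = A := hAp.1
  have hBh : Bᴴ = B := hBp.1
  have hCh : (outp W A B)ᴴ = outp W A B := (outC_posSemidef W A B hAp hBp).1
  have hC : IsDM (outp W A B) := ⟨outC_posSemidef W A B hAp hBp, outC_trace W A B hS.iso hAt hBt⟩
  rw [Finset.mul_sum, Finset.mul_sum, ← Finset.sum_add_distrib, ← Finset.sum_sub_distrib,
    Finset.mul_sum]
  refine (Finset.abs_sum_le_sum_abs _ _).trans (Finset.sum_le_sum fun j _ => ?_)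
  set a1 : Matrix (ι × ι') (ι × ι') ℂ := a j ⊗ₖ (1 : Matrix ι' ι' ℂ) with ha1
  set b1 : Matrix (ι × ι') (ι × ι') ℂ := (1 : Matrix ι ι ℂ) ⊗ₖ b j with hb1
  set c1 : Matrix (κ × ε) (κ × ε) ℂ := c j ⊗ₖ (1 : Matrix ε ε ℂ) with hc1
  set d1 : Matrix (κ × ε) (κ × ε) ℂ := (1 : Matrix κ κ ℂ) ⊗ₖ d j with hd1
  have hc := hS.hc j
  have hd := hS.hd j
  rw [← ha1, ← hb1, ← hc1] at hc
  rw [← ha1, ← hb1, ← hd1] at hd
  have q1 : ((s : ℝ) : ℂ) * s + (s' : ℂ) * s' = 1 := by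
    have := hS.col1
    rw [sq, sq] at this
    exact_mod_cast this
  have q2 : ((t : ℝ) : ℂ) * t + (t' : ℂ) * t' = 1 := by
    have := hS.col2
    rw [sq, sq] at this
    exact_mod_cast this
  have q3 : ((s : ℝ) : ℂ) * t + (s' : ℂ) * t' = 0 := by
    have := hS.cols
    exact_mod_cast this
  have hFa : (((s : ℝ) : ℂ) • c1 + ((s' : ℝ) : ℂ) • d1) * W = W * a1 := by
    rw [Matrix.add_mul, Matrix.smul_mul, Matrix.smul_mul, hc, hd, ← Matrix.mul_smul,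
      ← Matrix.mul_smul, ← Matrix.mul_add]
    congr 1
    ext i k
    simp only [Matrix.add_apply, Matrix.smul_apply, smul_eq_mul]
    linear_combination (a1 i k) * q1 + (b1 i k) * q3
  have hFb : (((t : ℝ) : ℂ) • c1 + ((t' : ℝ) : ℂ) • d1) * W = W * b1 := by
    rw [Matrix.add_mul, Matrix.smul_mul, Matrix.smul_mul, hc, hd, ← Matrix.mul_smul,
      ← Matrix.mul_smul, ← Matrix.mul_add]
    congr 1
    ext i k
    simp only [Matrix.add_apply, Matrix.smul_apply, smul_eq_mul]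
    linear_combination (a1 i k) * q3 + (b1 i k) * q2
  -- the exact identity
  have hsum : ((s : ℝ) : ℂ) * ((A ⊗ₖ B) * (a1ᴴ * pull W (H j))).trace +
      ((t : ℝ) : ℂ) * ((A ⊗ₖ B) * (b1ᴴ * pull W (H j))).trace =
      ((A ⊗ₖ B) * pull W ((c j)ᴴ * H j)).trace := by
    have e1 : ((s : ℝ) : ℂ) • (a1ᴴ * pull W (H j)) + ((t : ℝ) : ℂ) • (b1ᴴ * pull W (H j)) =
        pull W ((c j)ᴴ * H j) := by
      have e2 : (((s : ℝ) : ℂ) • a1 + ((t : ℝ) : ℂ) • b1)ᴴ * Wᴴ = Wᴴ * c1ᴴ := by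
        rw [← Matrix.conjTranspose_mul, ← hc, Matrix.conjTranspose_mul]
      have e3 : (((s : ℝ) : ℂ) • a1 + ((t : ℝ) : ℂ) • b1)ᴴ * pull W (H j) =
          pull W ((c j)ᴴ * H j) := by
        unfold pull
        rw [← Matrix.mul_assoc, ← Matrix.mul_assoc, e2, hc1, Matrix.conjTranspose_kronecker,
          Matrix.conjTranspose_one, Matrix.mul_assoc Wᴴ, ← Matrix.mul_kronecker_mul,
          Matrix.mul_one]
      rw [← e3, Matrix.conjTranspose_add, Matrix.conjTranspose_smul, Matrix.conjTranspose_smul,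
        Matrix.add_mul, Matrix.smul_mul, Matrix.smul_mul]
      simp only [Complex.star_def, Complex.conj_ofReal]
    rw [← e1, Matrix.mul_add, Matrix.mul_smul, Matrix.mul_smul, Matrix.trace_add,
      Matrix.trace_smul, Matrix.trace_smul]
    simp only [smul_eq_mul]
  set RA := Rg W (((s : ℝ) : ℂ) • c1 + ((s' : ℝ) : ℂ) • d1) a1 with hRA
  set RB := Rg W (((t : ℝ) : ℂ) • c1 + ((t' : ℝ) : ℂ) • d1) b1 with hRB
  set rA : ℂ := ((A ⊗ₖ B) * (Wᴴ * (H j ⊗ₖ (1 : Matrix ε ε ℂ)) * RAᴴ)).trace with hrA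
  set rB : ℂ := ((A ⊗ₖ B) * (Wᴴ * (H j ⊗ₖ (1 : Matrix ε ε ℂ)) * RBᴴ)).trace with hrB
  have hid : ((s : ℝ) : ℂ) * ((Xl NA (a j) A)ᴴ * EA W B (H j)).trace +
      ((t : ℝ) : ℂ) * ((Xl NB (b j) B)ᴴ * EB W A (H j)).trace -
      ((Xl (s ^ 2 * NA + t ^ 2 * NB) (c j) (outp W A B))ᴴ * H j).trace =
      ((s * NA : ℝ) : ℂ) * rA + ((t * NB : ℝ) : ℂ) * rB := by
    rw [trace_XA W NA (a j) A hAh B (H j), trace_XB W NB (b j) B hBh A (H j),
      trace_XC W _ (c j) hCh (H j), ← ha1, ← hb1, ← hsum]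
    have e1 := comm_pull hFa (H j)
    have e2 := comm_pull hFb (H j)
    rw [← hc1, ← hd1, ← hRA] at e1
    rw [← hc1, ← hd1, ← hRB] at e2
    rw [e1, e2]
    simp only [Matrix.mul_add, Matrix.mul_smul, Matrix.trace_add, Matrix.trace_smul, smul_eq_mul]
    rw [← hrA, ← hrB]
    push_cast
    ring
  have hbA := err_bound hS.iso hAp hBp hAt hBt hFa
    (by rw [hc1, hd1]; exact tp_F_pos hS.col1 (hS.lc.tp_pos j) (hS.ld.tp_pos j)) hh (hH j)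
  have hbB := err_bound hS.iso hAp hBp hAt hBt hFb
    (by rw [hc1, hd1]; exact tp_F_pos hS.col2 (hS.lc.tp_pos j) (hS.ld.tp_pos j)) hh (hH j)
  rw [← hRA, ← hrA] at hbA
  rw [← hRB, ← hrB] at hbB
  have ta : ((A ⊗ₖ B) * tp a1).trace = (A * tp (a j)).trace := by
    have : tp a1 = tp (a j) ⊗ₖ (1 : Matrix ι' ι' ℂ) := by
      rw [ha1]
      unfold tp
      rw [Matrix.conjTranspose_kronecker, Matrix.conjTranspose_one, ← Matrix.mul_kronecker_mul,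
        ← Matrix.mul_kronecker_mul, Matrix.one_mul, ← Matrix.one_kronecker_one,
        ← Matrix.add_kronecker]
      ext i k
      simp only [Matrix.sub_apply, Matrix.kroneckerMap_apply]
      ring
    rw [this, ← Matrix.mul_kronecker_mul, Matrix.mul_one, Matrix.trace_kronecker, hBt, mul_one]
  have tb : ((A ⊗ₖ B) * tp b1).trace = (B * tp (b j)).trace := by
    have : tp b1 = (1 : Matrix ι ι ℂ) ⊗ₖ tp (b j) := by
      rw [hb1]
      unfold tp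
      rw [Matrix.conjTranspose_kronecker, Matrix.conjTranspose_one, ← Matrix.mul_kronecker_mul,
        ← Matrix.mul_kronecker_mul, Matrix.one_mul, ← Matrix.one_kronecker_one,
        ← Matrix.kronecker_add]
      ext i k
      simp only [Matrix.sub_apply, Matrix.kroneckerMap_apply]
      ring
    rw [this, ← Matrix.mul_kronecker_mul, Matrix.mul_one, Matrix.trace_kronecker, hAt, one_mul]
  rw [ta] at hbA
  rw [tb] at hbB
  have pa : 0 ≤ (A * tp (a j)).trace.re :=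
    (Complex.le_def.1 (trace_mul_nonneg hAp (hS.la.tp_pos j))).1
  have pb : 0 ≤ (B * tp (b j)).trace.re :=
    (Complex.le_def.1 (trace_mul_nonneg hBp (hS.lb.tp_pos j))).1
  have hre : s * ((Xl NA (a j) A)ᴴ * EA W B (H j)).trace.re +
      t * ((Xl NB (b j) B)ᴴ * EB W A (H j)).trace.re -
      ((Xl (s ^ 2 * NA + t ^ 2 * NB) (c j) (outp W A B))ᴴ * H j).trace.re =
      (((s * NA : ℝ) : ℂ) * rA + ((t * NB : ℝ) : ℂ) * rB).re := by
    rw [← hid]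
    simp only [Complex.add_re, Complex.sub_re, Complex.re_ofReal_mul]
  rw [hre]
  refine (Complex.abs_re_le_norm _).trans ((norm_add_le _ _).trans ?_)
  rw [norm_mul, norm_mul, Complex.norm_real, Complex.norm_real, Real.norm_eq_abs,
    Real.norm_eq_abs, abs_mul, abs_mul, abs_of_nonneg hNA, abs_of_nonneg hNB]
  have hs := scal (s := s) (t := t) hS.row1 hNA hNB pa pb
  have hA' := mul_le_mul_of_nonneg_left hbA (by positivity : 0 ≤ |s| * NA)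
  have hB' := mul_le_mul_of_nonneg_left hbB (by positivity : 0 ≤ |t| * NB)
  have hs' := mul_le_mul_of_nonneg_left hs hh
  calc |s| * NA * ‖rA‖ + |t| * NB * ‖rB‖ ≤
      |s| * NA * (h * Real.sqrt (A * tp (a j)).trace.re) +
        |t| * NB * (h * Real.sqrt (B * tp (b j)).trace.re) := add_le_add hA' hB'
    _ = h * (|s| * NA * Real.sqrt (A * tp (a j)).trace.re +
        |t| * NB * Real.sqrt (B * tp (b j)).trace.re) := by ring
    _ ≤ h * ((s ^ 2 * NA + t ^ 2 * NB + |NB - NA|) *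
        Real.sqrt ((A * tp (a j)).trace.re + (B * tp (b j)).trace.re)) := hs'
    _ = _ := by ring

end

end Vale.Agent.P369.FD
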